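import Mathlib

/-! Thresholds for containing a graph. -/

namespace Vale.Agent.P064

/-- Expectation of `f` on the random graph `G(n,p)`. -/
noncomputable def gnp (n : ℕ) (p : ℝ) (f : SimpleGraph (Fin n) → ℝ) : ℝ :=
  ∑ G : SimpleGraph (Fin n), p ^ G.edgeSet.ncard * (1 - p) ^ (n.choose 2 - G.edgeSet.ncard) * f G

/-- The threshold `p_c(n,H)`. -/
noncomputable def pc (n : ℕ) {m : ℕ} (H : SimpleGraph (Fin m)) : ℝ :=
  sInf {p : ℝ | 0 ≤ p ∧ p ≤ 1 ∧ 1 / 2 ≤ gnp n p fun G => if 0 < G.copyCount H then 1 else 0}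

/-- The expectation threshold `p_E(n,H)`. -/
noncomputable def pE (n : ℕ) {m : ℕ} (H : SimpleGraph (Fin m)) : ℝ :=
  sInf {p : ℝ | 0 ≤ p ∧ p ≤ 1 ∧ ∀ F : H.Subgraph, 1 / 2 ≤ gnp n p fun G => G.copyCount F.coe}

end Vale.Agent.P064
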