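import Vale.Agent.P064.Sym

/-! Sparse sets are spread. -/

namespace Vale.Agent.P064

open Finset Real Pointwise

variable {Γ : Type} [Group Γ] [Fintype Γ] {X : Type} [Fintype X] [DecidableEq X] [MulAction Γ X]

/-- push-forward of a weight -/
noncomputable def push {Ω Ω' : Type} [Fintype Ω] [DecidableEq Ω'] (f : Ω → Ω') (R : Ω → ℝ) (b : Ω') :
    ℝ := ∑ a, if f a = b then R a else 0

lemma sum_push {Ω Ω' : Type} [Fintype Ω] [Fintype Ω'] [DecidableEq Ω'] (f : Ω → Ω') (R : Ω → ℝ)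
    (ψ : Ω' → ℝ) : ∑ b, push f R b * ψ b = ∑ a, R a * ψ (f a) := by
  simp only [push, sum_mul, ite_mul, zero_mul]
  rw [sum_comm]
  simp

lemma push_nonneg {Ω Ω' : Type} [Fintype Ω] [DecidableEq Ω'] (f : Ω → Ω') {R : Ω → ℝ}
    (h : ∀ a, 0 ≤ R a) (b : Ω') : 0 ≤ push f R b :=
  sum_nonneg fun a _ => by split_ifs <;> simp [h]

lemma push_ne {Ω Ω' : Type} [Fintype Ω] [DecidableEq Ω'] {f : Ω → Ω'} {R : Ω → ℝ} {b : Ω'}
    (h : push f R b ≠ 0) : ∃ a, f a = b ∧ R a ≠ 0 := by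
  obtain ⟨a, -, ha⟩ := exists_ne_zero_of_sum_ne_zero h
  exact ⟨a, by simpa using ha⟩

lemma push_pos {Ω Ω' : Type} [Fintype Ω] [DecidableEq Ω'] (f : Ω → Ω') {R : Ω → ℝ}
    (h : ∀ a, 0 ≤ R a) {a : Ω} (ha : R a ≠ 0) : 0 < push f R (f a) :=
  sum_pos' (fun a _ => by split_ifs <;> simp [h])
    ⟨a, mem_univ _, by simpa using lt_of_le_of_ne (h a) ha.symm⟩

lemma mar_eq (Q : Finset X → ℝ) (x : X) : mar Q x = ∑ A, Q A * if x ∈ A then 1 else 0 := by
  simp [mar]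

lemma doubling {P : Finset X → ℝ} (h0 : ∀ A, 0 ≤ P A) (h1 : ∑ A, P A = 1)
    {R : Finset X × Finset X → ℝ} (hR : ∀ a, R a = P a.1 * P a.2)
    {ϖ : Finset X × Finset X → ℝ} (hϖ : ϖ = sym Γ (push (fun a => (a.1, a.1 ∩ a.2)) R)) :
    2 * ∑ a, φ (ϖ a) + D Γ (push (fun a => a.1 ∪ a.2) R) - 2 * ∑ A, φ (P A) -
      ∑ T, φ (∑ A, ϖ (A, T)) ≤ 0 := by
  have R0 : ∀ a, 0 ≤ R a := fun a => by rw [hR]; exact mul_nonneg (h0 _) (h0 _)
  have R1 : ∑ a, R a = 1 := by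
    simp only [hR, Fintype.sum_prod_type, ← mul_sum, h1, mul_one]
  have Rs : ∀ ψ : Finset X × Finset X → ℝ, ∑ a, R a * ψ a = ∑ a, R a * ψ a.swap := fun ψ =>
    Fintype.sum_equiv (Equiv.prodComm _ _) _ _ fun a => by simp [hR, mul_comm]
  have ϖ0 : ∀ a, 0 ≤ ϖ a := fun a => by rw [hϖ]; exact sym_nonneg (push_nonneg _ R0) a
  have ϖi : ∀ (g : Γ) a, ϖ (g • a) = ϖ a := fun g a => by rw [hϖ, sym_smul]
  have ϖp : ∀ a, R a ≠ 0 → 0 < ϖ (a.1, a.1 ∩ a.2) := fun a h => by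
    rw [hϖ]; exact sym_pos (push_nonneg _ R0) (push_pos _ R0 h).ne'
  have tr : ∀ ψ : Finset X × Finset X → ℝ, (∀ (g : Γ) a, ψ (g • a) = ψ a) →
      ∑ a, ϖ a * ψ a = ∑ a, R a * ψ (a.1, a.1 ∩ a.2) := fun ψ h => by
    rw [hϖ, sum_sym _ _ h, sum_push]
  obtain ⟨ζ, hζ⟩ : ∃ ζ : Finset X → ℝ, ∀ T, ζ T = ∑ A, ϖ (A, T) := ⟨_, fun _ => rfl⟩
  have ζi : ∀ (g : Γ) T, ζ (g • T) = ζ T := fun g T => by
    rw [hζ, hζ, hϖ, sym_snd, sym_snd, sym_smul]
  have ζp : ∀ A T, ϖ (A, T) ≤ ζ T := fun A T => by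
    rw [hζ]; exact single_le_sum (f := fun A => ϖ (A, T)) (fun _ _ => ϖ0 _) (mem_univ A)
  obtain ⟨Q, hQ⟩ : ∃ Q, Q = push (fun a => a.1 ∪ a.2) R := ⟨_, rfl⟩
  have Q0 : ∀ C, 0 ≤ Q C := fun C => by rw [hQ]; exact push_nonneg _ R0 C
  have Qp : ∀ a, R a ≠ 0 → 0 < Q (a.1 ∪ a.2) := fun a h => by rw [hQ]; exact push_pos _ R0 h
  obtain ⟨G, hG⟩ : ∃ G : Finset X × Finset X → ℝ, ∀ a, G a =
    ϖ (a.1, a.1 ∩ a.2) * ϖ (a.2, a.1 ∩ a.2) / ζ (a.1 ∩ a.2) := ⟨_, fun _ => rfl⟩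
  have G0 : ∀ a, 0 ≤ G a := fun a => by
    rw [hG]; exact div_nonneg (mul_nonneg (ϖ0 _) (ϖ0 _)) ((ϖ0 _).trans (ζp ∅ _))
  have Gi : ∀ (g : Γ) a, G (g • a) = G a := fun g a => by
    rw [hG, hG, Prod.smul_fst, Prod.smul_snd, ← smul_finset_inter, ζi, ← ϖi g (a.1, _),
      ← ϖi g (a.2, _)]
    rfl
  have G1 : ∑ a, G a ≤ 1 := by
    calc ∑ a, G a ≤ ∑ a : Finset X × Finset X, ∑ T, ϖ (a.1, T) * ϖ (a.2, T) / ζ T :=
          sum_le_sum fun a _ => by
            rw [hG]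
            exact single_le_sum (f := fun T => ϖ (a.1, T) * ϖ (a.2, T) / ζ T) (fun T _ =>
              div_nonneg (mul_nonneg (ϖ0 _) (ϖ0 _)) ((ϖ0 _).trans (ζp ∅ _))) (mem_univ _)
      _ = ∑ T, ζ T * ζ T / ζ T := by
          rw [sum_comm]
          refine sum_congr rfl fun T _ => ?_
          rw [← sum_div, Fintype.sum_prod_type, hζ, sum_mul_sum]
      _ = ∑ T, ζ T := by simp only [mul_self_div_self]
      _ = 1 := by
          simp only [hζ]
          rw [sum_comm, ← Fintype.sum_prod_type, ← R1]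
          simpa using tr (fun _ => 1) fun _ _ => rfl
  have g := gibbs univ R (fun a => G a * Q (a.1 ∪ a.2) / (sym Γ Q (a.1 ∪ a.2) * R a)) R0
    fun a h => by
      have a1 := ϖp a h
      have a2 := ϖp a.swap (by simpa [hR, mul_comm] using h)
      have a3 := Qp a h
      have a4 := sym_pos (Γ := Γ) Q0 a3.ne'
      have a5 := lt_of_le_of_ne (R0 a) h.symm
      have a6 := a1.trans_le (ζp _ _)
      simp only [Prod.fst_swap, Prod.snd_swap, inter_comm a.2] at a2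
      rw [hG]; positivity
  have g2 : ∑ a, R a * (G a * Q (a.1 ∪ a.2) / (sym Γ Q (a.1 ∪ a.2) * R a)) ≤ 1 := by
    calc _ ≤ ∑ a : Finset X × Finset X, Q (a.1 ∪ a.2) * (G a / sym Γ Q (a.1 ∪ a.2)) :=
          sum_le_sum fun a _ => by
            by_cases h : R a = 0
            · simpa [h] using mul_nonneg (Q0 _) (div_nonneg (G0 _) (sym_nonneg Q0 _))
            · exact le_of_eq (by field_simp)
      _ = ∑ a : Finset X × Finset X, sym Γ Q (a.1 ∪ a.2) * (G a / sym Γ Q (a.1 ∪ a.2)) := by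
          rw [← sum_sym (Γ := Γ) (fun a : Finset X × Finset X => Q (a.1 ∪ a.2)) _ fun g a => by
            rw [Gi, Prod.smul_fst, Prod.smul_snd, ← smul_finset_union, sym_smul]]
          simp only [sym, Prod.smul_fst, Prod.smul_snd, smul_finset_union]
      _ ≤ ∑ a, G a := sum_le_sum fun a _ => by
          by_cases h : sym Γ Q (a.1 ∪ a.2) = 0
          · simp [h, G0]
          · rw [mul_div_cancel₀ _ h]
      _ ≤ 1 := G1
  have g3 : ∑ a, R a * log (G a * Q (a.1 ∪ a.2) / (sym Γ Q (a.1 ∪ a.2) * R a)) =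
      ∑ a, (R a * log (ϖ (a.1, a.1 ∩ a.2)) + R a * log (ϖ (a.2, a.2 ∩ a.1)) - R a * log (ζ (a.1 ∩ a.2)) +
      R a * log (Q (a.1 ∪ a.2)) - R a * log (sym Γ Q (a.1 ∪ a.2)) - R a * log (P a.1) -
      R a * log (P a.2)) := by
    refine sum_congr rfl fun a _ => ?_
    by_cases h : R a = 0
    · simp [h]
    have a1 := ϖp a h
    have a2 := ϖp a.swap (by simpa [hR, mul_comm] using h)
    have a3 := Qp a h
    have a4 := sym_pos (Γ := Γ) Q0 a3.ne'
    have a6 := a1.trans_le (ζp _ _)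
    have a7 : log (R a) = log (P a.1) + log (P a.2) := by
      rw [hR] at h ⊢; exact log_mul (left_ne_zero_of_mul h) (right_ne_zero_of_mul h)
    simp only [Prod.fst_swap, Prod.snd_swap, inter_comm a.2] at a2 ⊢
    rw [hG, log_div (by positivity) (mul_ne_zero a4.ne' h), log_mul (by positivity) a3.ne',
      log_div (by positivity) a6.ne', log_mul a1.ne' a2.ne', log_mul a4.ne' h, a7]
    ring
  have e1 : ∑ a, R a * log (ϖ (a.1, a.1 ∩ a.2)) = ∑ a, φ (ϖ a) :=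
    (tr (fun a => log (ϖ a)) fun g a => by rw [ϖi]).symm
  have e2 : ∑ a, R a * log (ϖ (a.2, a.2 ∩ a.1)) = ∑ a, φ (ϖ a) := by rw [← e1, Rs]; rfl
  have e3 : ∑ a, R a * log (ζ (a.1 ∩ a.2)) = ∑ T, φ (∑ A, ϖ (A, T)) := by
    rw [← tr (fun a => log (ζ a.2)) fun g a => by rw [Prod.smul_snd, ζi], Fintype.sum_prod_type,
      sum_comm]
    simp only [← sum_mul, ← hζ, φ]
  have e4 : ∑ a, R a * log (Q (a.1 ∪ a.2)) = ∑ C, φ (Q C) := by
    rw [← sum_push (fun a : Finset X × Finset X => a.1 ∪ a.2) R fun C => log (Q C), ← hQ]; rfl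
  have e5 : ∑ a, R a * log (sym Γ Q (a.1 ∪ a.2)) = ∑ C, φ (sym Γ Q C) := by
    rw [← sum_push (fun a : Finset X × Finset X => a.1 ∪ a.2) R fun C => log (sym Γ Q C), ← hQ,
      sum_log_sym]
  have e6 : ∑ a, R a * log (P a.1) = ∑ A, φ (P A) := by
    simp only [hR, Fintype.sum_prod_type, mul_right_comm _ (P _), ← mul_sum, h1, mul_one, φ]
  have e7 : ∑ a, R a * log (P a.2) = ∑ A, φ (P A) := by rw [← e6, Rs]; rfl
  simp only [sum_add_distrib, sum_sub_distrib, e1, e2, e3, e4, e5, e6, e7] at g3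
  rw [← hQ, D]
  linarith

lemma W_double {p : ℝ} (h0 : 0 ≤ p) (h1 : p ≤ 1) :
    14 / 5 * W 1 p - 12 / 5 * p ^ 2 ≤ W 1 (2 * p - p ^ 2) := by
  have hs := sqrt_nonneg p
  have hq := sq_sqrt h0
  have h2 : √p ≤ 1 := sqrt_le_one.2 h1
  have h3 : √p * (7 / 5 - p / 2) ≤ √(2 * p - p ^ 2) := by
    apply le_sqrt_of_sq_le
    rw [mul_pow, hq]
    nlinarith [mul_nonneg h0 (sub_nonneg.2 h1), mul_nonneg h0 (mul_nonneg h0 (sub_nonneg.2 h1))]
  have h4 := mul_le_mul_of_nonneg_left h3 (by nlinarith : 0 ≤ 2 * p - p ^ 2)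
  simp only [W, div_one]
  nlinarith [mul_nonneg (sq_nonneg p) (sub_nonneg.2 h2), mul_nonneg (mul_nonneg (sq_nonneg p) h0) hs]

theorem bound {H : Finset X} {l Λ : ℝ}
    (hS : ∀ A ⊆ H, exp (l * #A) ≤ #(univ.image fun g : Γ => g • A)) {P : Finset X → ℝ}
    (h0 : ∀ A, 0 ≤ P A) (h1 : ∑ A, P A = 1) (hH : ∀ A, P A ≠ 0 → A ⊆ H) (hu : 1 ≤ sz P)
    (he : P ∅ = 0) (hJ : J Γ l P = Λ * sz P) (hm : ∀ Q : Finset X → ℝ, (∀ A, 0 ≤ Q A) →
      (∀ A, Q A ≠ 0 → A ⊆ H) → Q ∅ = 0 → J Γ l Q ≤ Λ * sz Q) : Λ ≤ 100 := by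
  obtain ⟨R, hR⟩ : ∃ R : Finset X × Finset X → ℝ, ∀ a, R a = P a.1 * P a.2 := ⟨_, fun _ => rfl⟩
  obtain ⟨ν, hν⟩ : ∃ ν, ν = push (fun a => (a.1, a.1 ∩ a.2)) R := ⟨_, rfl⟩
  obtain ⟨ϖ, hϖ⟩ : ∃ ϖ, ϖ = sym Γ ν := ⟨_, rfl⟩
  have d := doubling h0 h1 hR (hν ▸ hϖ)
  have R0 : ∀ a, 0 ≤ R a := fun a => by rw [hR]; exact mul_nonneg (h0 _) (h0 _)
  have R1 : ∑ a, R a = 1 := by
    simp only [hR, Fintype.sum_prod_type, ← mul_sum, h1, mul_one]
  have RH : ∀ a, R a ≠ 0 → a.1 ⊆ H ∧ a.2 ⊆ H := fun a h => by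
    rw [hR] at h; exact ⟨hH _ (left_ne_zero_of_mul h), hH _ (right_ne_zero_of_mul h)⟩
  have ν0 : ∀ a, 0 ≤ ν a := fun a => by rw [hν]; exact push_nonneg _ R0 a
  have ϖ0 : ∀ a, 0 ≤ ϖ a := fun a => by rw [hϖ]; exact sym_nonneg ν0 a
  have ϖi : ∀ (g : Γ) a, ϖ (g • a) = ϖ a := fun g a => by rw [hϖ, sym_smul]
  have ν1 : ∀ A, ∑ T, ν (A, T) = P A := by
    intro A
    simp only [hν, push]
    rw [sum_comm, Fintype.sum_prod_type, sum_eq_single A]
    · simp [hR, ← mul_sum, h1]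
    · intro B _ hB; simp [hB]
    · simp
  have ϖ1 : ∀ A, ∑ T, ϖ (A, T) = sym Γ P A := fun A => by rw [hϖ, sym_fst]; simp only [ν1]
  have ϖs : ∀ A T, ϖ (A, T) ≠ 0 → T ⊆ A := by
    intro A T h
    rw [hϖ, sym] at h
    obtain ⟨g, -, hg⟩ := exists_ne_zero_of_sum_ne_zero (div_ne_zero_iff.1 h).1
    rw [hν] at hg
    obtain ⟨a, ha, -⟩ := push_ne hg
    simp only [Prod.smul_mk, Prod.mk.injEq] at ha
    rw [← smul_finset_subset_smul_finset_iff (a := g), ← ha.1, ← ha.2]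
    exact inter_subset_left
  obtain ⟨m, hm'⟩ : ∃ m : Finset X × Finset X → ℝ, ∀ a, m a = P a.1 * (ϖ a / sym Γ P a.1) :=
    ⟨_, fun _ => rfl⟩
  have m0 : ∀ a, 0 ≤ m a := fun a => by
    rw [hm']; exact mul_nonneg (h0 _) (div_nonneg (ϖ0 _) (sym_nonneg h0 _))
  have mP : ∀ a, m a ≠ 0 → P a.1 ≠ 0 ∧ ϖ a ≠ 0 := fun a h => by
    rw [hm'] at h; exact ⟨left_ne_zero_of_mul h, (div_ne_zero_iff.1 (right_ne_zero_of_mul h)).1⟩
  have m1 : ∀ A, ∑ T, m (A, T) = P A := by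
    intro A
    simp only [hm', ← mul_sum, ← sum_div, ϖ1]
    by_cases h : P A = 0
    · simp [h]
    · rw [div_self (sym_pos h0 h).ne', mul_one]
  have mϖ : ∀ a, sym Γ m a = ϖ a := by
    intro a
    rw [funext hm', sym_mul _ _ fun g a => by rw [ϖi, Prod.smul_fst, sym_smul]]
    change sym Γ P a.1 * _ = _
    by_cases h : sym Γ P a.1 = 0
    · rw [h, zero_mul]
      exact ((sum_eq_zero_iff_of_nonneg fun T _ => ϖ0 (a.1, T)).1 ((ϖ1 a.1).trans h) a.2 (by simp)).symm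
    · rw [mul_div_cancel₀ _ h]
  have tr : ∀ ψ : Finset X × Finset X → ℝ, (∀ (g : Γ) a, ψ (g • a) = ψ a) →
      ∑ a, m a * ψ a = ∑ a, ϖ a * ψ a := fun ψ h => by
    rw [← sum_sym _ _ h]; simp only [mϖ]
  obtain ⟨P', hP'⟩ : ∃ P' : Finset X → ℝ, ∀ T, P' T = ∑ A, m (A, T) := ⟨_, fun _ => rfl⟩
  have P'0 : ∀ T, 0 ≤ P' T := fun T => by rw [hP']; exact sum_nonneg fun _ _ => m0 _
  have P'1 : ∑ T, P' T = 1 := by simp only [hP']; rw [sum_comm]; simp only [m1, h1]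
  have P'H : ∀ T, P' T ≠ 0 → T ⊆ H := fun T h => by
    rw [hP'] at h
    obtain ⟨A, -, hA⟩ := exists_ne_zero_of_sum_ne_zero h
    exact (ϖs _ _ (mP _ hA).2).trans (hH _ (mP _ hA).1)
  have P's : ∀ T, ∑ A, ϖ (A, T) = sym Γ P' T := fun T => by
    rw [funext hP', ← sym_snd]; simp only [mϖ]
  simp only [P's] at d
  have hz : sz P' = ∑ x, mar P x ^ 2 := by
    have := tr (fun a => (#a.2 : ℝ)) fun g a => by simp
    rw [hϖ, sum_sym ν _ fun (g : Γ) a => by simp, hν, sum_push, Fintype.sum_prod_type,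
      sum_comm] at this
    simp only [← sum_mul, ← hP'] at this
    rw [sz, this, Fintype.sum_prod_type]
    simp only [mar_eq, sq, sum_mul_sum, hR]
    symm
    rw [sum_comm]
    refine sum_congr rfl fun A _ => ?_
    rw [sum_comm]
    refine sum_congr rfl fun B _ => ?_
    have : ∀ x, (P A * if x ∈ A then 1 else 0) * (P B * if x ∈ B then 1 else 0) =
        P A * P B * if x ∈ A ∩ B then 1 else 0 := fun x => by
      by_cases a : x ∈ A <;> by_cases b : x ∈ B <;> simp [a, b]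
    simp only [this, ← mul_sum]
    rw [sum_boole, filter_mem_eq_inter, univ_inter]
  have p0 : ∀ x, 0 ≤ mar P x := fun x => sum_nonneg fun A _ => by split_ifs <;> simp [h0]
  have p1 : ∀ x, mar P x ≤ 1 := fun x => h1 ▸ sum_le_sum fun A _ => by split_ifs <;> simp [h0]
  obtain ⟨Q, hQ⟩ : ∃ Q, Q = push (fun a => a.1 ∪ a.2) R := ⟨_, rfl⟩
  rw [← hQ] at d
  have Q1 : ∑ C, Q C = 1 := by simpa [← hQ, R1] using sum_push (fun a => a.1 ∪ a.2) R fun _ => 1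
  have Qm : ∀ x, mar Q x = 2 * mar P x - mar P x ^ 2 := by
    intro x
    have e : 1 - mar P x = ∑ A, P A * if x ∈ A then 0 else 1 := by
      nth_rewrite 1 [← h1]
      rw [mar, ← sum_sub_distrib]
      exact sum_congr rfl fun A _ => by split_ifs <;> simp
    have : 1 - mar Q x = (1 - mar P x) * (1 - mar P x) := by
      rw [e, sum_mul_sum, mar_eq, hQ, sum_push]
      nth_rewrite 1 [← R1]
      rw [← sum_sub_distrib, Fintype.sum_prod_type]
      refine sum_congr rfl fun A _ => sum_congr rfl fun B _ => ?_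
      by_cases a : x ∈ A <;> by_cases b : x ∈ B <;> simp [a, b, hR]
    linarith
  have i1 := hm Q (fun C => hQ ▸ push_nonneg _ R0 C) (fun C h => by
    obtain ⟨a, rfl, ha⟩ := push_ne (hQ ▸ h)
    exact union_subset (RH a ha).1 (RH a ha).2) (by
    by_contra h
    obtain ⟨a, h2, ha⟩ := push_ne (hQ ▸ h)
    rw [hR, (union_eq_empty.1 h2).1, he, zero_mul] at ha
    exact ha rfl)
  have i8 := sum_le_sum fun x (_ : x ∈ univ) => W_double (p0 x) (p1 x)
  have i9 : sz Q = 2 * sz P - sz P' := by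
    simp only [hz, sz_eq Q, sz_eq P, Qm, sum_sub_distrib, ← mul_sum]
  have i4 : ∑ T, φ (sym Γ P' T) ≤ -(l * sz P') := by
    rw [← sum_log_sym, sz, mul_sum, ← sum_neg_distrib]
    refine sum_le_sum fun T _ => ?_
    by_cases h : P' T = 0
    · simp [h]
    have a1 := sym_orbit (Γ := Γ) P'0 T
    have a2 := sym_pos (Γ := Γ) P'0 h
    have a3 := log_le_log (by positivity) (((mul_le_mul_of_nonneg_right (hS T (P'H T h)) a2.le).trans
      a1).trans_eq P'1)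
    rw [log_mul (exp_pos _).ne' a2.ne', log_exp, log_one] at a3
    nlinarith [P'0 T]
  have i5 : l * sz P' - D Γ P' ≤ Λ * sz P' := by
    obtain ⟨Q', hQ'⟩ : ∃ Q' : Finset X → ℝ, ∀ T, Q' T = if T = ∅ then 0 else P' T := ⟨_, fun _ => rfl⟩
    have Q'0 : ∀ T, 0 ≤ Q' T := fun T => by rw [hQ']; split_ifs <;> simp [P'0]
    have := hm Q' Q'0 (fun T h => P'H T fun h' => h (by simp [hQ', h'])) (by simp [hQ'])
    have e1 : sz Q' = sz P' := sum_congr rfl fun T _ => by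
      rw [hQ']; split_ifs with h <;> simp [h]
    have e2 : D Γ Q' = D Γ P' := by
      rw [D, D, ← sum_sub_distrib, ← sum_sub_distrib]
      refine sum_congr rfl fun T _ => ?_
      by_cases h : T = ∅
      · have : (Fintype.card Γ : ℝ) ≠ 0 := by exact_mod_cast Fintype.card_ne_zero
        simp [h, hQ', sym, this]
      · simp [h, hQ', sym]
    have e3 : 0 ≤ ∑ x, W (∑ A, Q' A) (mar Q' x) := sum_nonneg fun x _ =>
      W_nonneg _ (sum_nonneg fun A _ => by split_ifs <;> simp [Q'0])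
    rw [J, e1, e2] at this
    linarith
  have i6 : ∀ T, l * sz (fun A => m (A, T)) - ∑ A, φ (m (A, T)) + φ (P' T) +
      ∑ A, m (A, T) * log (sym Γ P A) + 10 * ∑ x, W (P' T) (mar (fun A => m (A, T)) x) ≤
      Λ * sz (fun A => m (A, T)) := by
    intro T
    have a1 := hm (fun A => m (A, T)) (fun _ => m0 _) (fun A h => hH _ (mP _ h).1) (by simp [hm', he])
    have hp : ∀ A, m (A, T) ≠ 0 → 0 < P' T := fun A h => by
      rw [hP']; exact sum_pos' (fun _ _ => m0 _) ⟨A, mem_univ _, lt_of_le_of_ne (m0 _) h.symm⟩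
    have a2 := variational (Γ := Γ) (f := fun A => m (A, T)) (R := fun A => P' T * sym Γ P A)
      (fun _ => m0 _) (fun A => mul_nonneg (P'0 T) (sym_nonneg h0 A))
      (fun g A => by rw [sym_smul]) (fun A h => mul_pos (hp A h) (sym_pos h0 (mP _ h).1))
      (by rw [← mul_sum, sum_sym', h1, mul_one, hP'])
    have a3 : ∑ A, m (A, T) * log (P' T * sym Γ P A) =
        φ (P' T) + ∑ A, m (A, T) * log (sym Γ P A) := by
      rw [φ]
      nth_rewrite 2 [hP']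
      rw [sum_mul, ← sum_add_distrib]
      refine sum_congr rfl fun A _ => ?_
      by_cases h : m (A, T) = 0
      · simp [h]
      · rw [log_mul (hp A h).ne' (sym_pos h0 (mP _ h).1).ne', mul_add]
    rw [J, D, ← hP'] at a1
    linarith
  have i6' := sum_le_sum fun T (_ : T ∈ univ) => i6 T
  have e1 : ∑ T, sz (fun A => m (A, T)) = sz P := by
    simp only [sz]; rw [sum_comm]; simp only [← sum_mul, m1]
  have e2 : ∑ T, ∑ A, m (A, T) * log (sym Γ P A) = ∑ A, φ (sym Γ P A) := by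
    rw [sum_comm, ← sum_log_sym]; simp only [← sum_mul, m1]
  have e3 : ∑ T, ∑ A, φ (m (A, T)) = ∑ A, φ (P A) + ∑ a, φ (ϖ a) - ∑ A, φ (sym Γ P A) := by
    have b1 : ∑ a, m a * log (P a.1) = ∑ A, φ (P A) := by
      rw [Fintype.sum_prod_type]; simp only [← sum_mul, m1, φ]
    have b2 := tr (fun a => log (ϖ a)) fun g a => by rw [ϖi]
    rw [← e2, ← b1, sum_comm (f := fun T A => m (A, T) * log (sym Γ P A)), sum_comm,
      ← Fintype.sum_prod_type (f := fun a => φ (m a)),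
      ← Fintype.sum_prod_type (f := fun a => m a * log (sym Γ P a.1))]
    simp only [φ, ← b2, ← sum_add_distrib, ← sum_sub_distrib]
    refine sum_congr rfl fun a _ => ?_
    by_cases h : m a = 0
    · simp [h]
    · have := sym_pos (Γ := Γ) h0 (mP _ h).1
      nth_rewrite 2 [hm']
      rw [log_mul (mP _ h).1 (div_ne_zero (mP _ h).2 this.ne'), log_div (mP _ h).2 this.ne']
      ring
  have i7 := key univ (fun A T => m (A, T)) (fun _ _ => m0 _) fun A T h => ϖs _ _ (mP _ h).2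
  simp only [powerset_univ, m1, ← hP', P'1, ← sum_mul, e3] at i7
  rw [sum_comm (f := fun y T => W (P' T) _)] at i7
  simp only [sum_add_distrib, sum_sub_distrib, ← mul_sum, e1, e2, e3] at i6' i8
  simp only [J, D, h1, Q1, Qm, i9] at hJ i1 i5 d
  have s0 : 0 ≤ ∑ x, W 1 (mar P x) := sum_nonneg fun x _ => W_nonneg _ (p0 x)
  have z0 : 0 < sz P' := by
    rw [hz]
    by_contra hn
    have := (sum_eq_zero_iff_of_nonneg fun x _ => sq_nonneg _).1
      (le_antisymm (not_lt.1 hn) (sum_nonneg fun x _ => sq_nonneg _))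
    rw [sz_eq, sum_eq_zero fun x hx => pow_eq_zero_iff two_ne_zero |>.1 (this x hx)] at hu
    linarith
  have : φ 1 = 0 := by simp [φ]
  by_contra hn
  have := mul_lt_mul_of_pos_right (not_le.1 hn) z0
  rw [← hz] at i8
  change _ ≤ 1 / 2 * sz P' + ∑ T, ∑ x, W (P' T) (mar (fun A => m (A, T)) x) at i7
  linarith

theorem spread {H : Finset X} {q : ℝ} (hq : 0 < q)
    (hS : ∀ A ⊆ H, 1 ≤ #(univ.image fun g : Γ => g • A) * q ^ #A) (T : Finset X) :
    (#{g : Γ | g • T ⊆ H} : ℝ) / Fintype.card Γ ≤ (exp 100 * q) ^ #T := by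
  have hΓ : (0 : ℝ) < Fintype.card Γ := by exact_mod_cast Fintype.card_pos
  rcases T.eq_empty_or_nonempty with rfl | hT
  · simp
  rcases (univ.filter fun g : Γ => g • T ⊆ H).eq_empty_or_nonempty with h | ⟨g₀, hg₀⟩
  · rw [h]; simp; positivity
  have hg₀ := (mem_filter.1 hg₀).2
  obtain ⟨Λ, P, h0, h1, h2, h3, h4, h5, h6⟩ := exists_max Γ H
    ((smul_finset_nonempty.2 hT).mono hg₀) (-log q)
  have hb := bound (fun A hA => by
    rw [neg_mul, exp_neg, mul_comm, exp_nat_mul, exp_log hq, inv_le_iff_one_le_mul₀ (by positivity)]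
    exact hS A hA) h0 h1 h2 h4 h3 h5 h6
  obtain ⟨Q, hQ⟩ : ∃ Q : Finset X → ℝ, ∀ A, Q A =
    if A ⊆ H ∧ A ∈ univ.image fun g : Γ => g • T then 1 else 0 := ⟨_, fun _ => rfl⟩
  have Q0 : ∀ A, 0 ≤ Q A := fun A => by rw [hQ]; split_ifs <;> simp
  have Q1 : ∀ A, Q A ≠ 0 → A ⊆ H ∧ ∃ g : Γ, g • T = A := fun A h => by simpa [hQ] using h
  have a1 := h6 Q Q0 (fun A h => (Q1 A h).1) (by
    by_contra h
    obtain ⟨g, hg⟩ := (Q1 _ h).2
    exact hT.ne_empty (by simpa using hg))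
  have e1 : sz Q = (∑ A, Q A) * #T := by
    rw [sz, sum_mul]
    refine sum_congr rfl fun A _ => ?_
    by_cases h : Q A = 0
    · simp [h]
    · obtain ⟨g, rfl⟩ := (Q1 _ h).2
      simp
  have e2 : sym Γ Q T = (#{g : Γ | g • T ⊆ H} : ℝ) / Fintype.card Γ := by
    simp [sym, hQ]
  have e3 : D Γ Q = -((∑ A, Q A) * log (sym Γ Q T)) := by
    rw [D, ← sum_log_sym, sum_mul, sum_eq_zero fun A _ => by rw [hQ, φ]; split_ifs <;> simp,
      zero_sub]
    congr 1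
    refine sum_congr rfl fun A _ => ?_
    by_cases h : Q A = 0
    · simp [h]
    · obtain ⟨g, rfl⟩ := (Q1 _ h).2
      rw [sym_smul]
  have e4 : 0 ≤ ∑ x, W (∑ A, Q A) (mar Q x) := sum_nonneg fun x _ =>
    W_nonneg _ (sum_nonneg fun A _ => by split_ifs <;> simp [Q0])
  have e5 : Q (g₀ • T) ≠ 0 := by simp [hQ, hg₀]
  have e6 : 0 < ∑ A, Q A := sum_pos' (fun A _ => Q0 A) ⟨_, mem_univ _, lt_of_le_of_ne (Q0 _) e5.symm⟩
  have e7 := sym_pos (Γ := Γ) Q0 e5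
  rw [sym_smul] at e7
  rw [J, e1, e3] at a1
  rw [← e2, ← log_le_log_iff e7 (by positivity), log_pow, log_mul (by positivity) hq.ne', log_exp]
  apply le_of_mul_le_mul_left _ e6
  nlinarith [mul_le_mul_of_nonneg_right hb (by positivity : 0 ≤ (∑ A, Q A) * #T)]

end Vale.Agent.P064
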