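import Mathlib

/-! The Park-Pham theorem. -/

namespace Vale.Agent.P064

open Finset

variable {X : Type} [DecidableEq X]

/-- expectation over a random subset of `V` -/
noncomputable def Ex (V : Finset X) (ρ : ℝ) (f : Finset X → ℝ) : ℝ :=
  ∑ W ∈ V.powerset, ρ ^ #W * (1 - ρ) ^ (#V - #W) * f W

lemma Ex_insert {V : Finset X} {x : X} (hx : x ∉ V) (ρ : ℝ) (f : Finset X → ℝ) :
    Ex (insert x V) ρ f = (1 - ρ) * Ex V ρ f + ρ * Ex V ρ fun W => f (insert x W) := by
  simp only [Ex, sum_powerset_insert hx, mul_sum, card_insert_of_notMem hx]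
  congr 1
  · refine sum_congr rfl fun W hW => ?_
    rw [Nat.succ_sub (card_le_card (mem_powerset.1 hW)), pow_succ]; ring
  · refine sum_congr rfl fun W hW => ?_
    rw [card_insert_of_notMem fun h => hx (mem_powerset.1 hW h), Nat.succ_sub_succ]; ring

omit [DecidableEq X] in
lemma Ex_lin (V : Finset X) (ρ a b : ℝ) (f g : Finset X → ℝ) :
    Ex V ρ (fun W => a * f W + b * g W) = a * Ex V ρ f + b * Ex V ρ g := by
  simp only [Ex, mul_sum, ← sum_add_distrib]
  exact sum_congr rfl fun W _ => by ring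

omit [DecidableEq X] in
lemma Ex_mono {V : Finset X} {ρ : ℝ} (h0 : 0 ≤ ρ) (h1 : ρ ≤ 1) {f g : Finset X → ℝ}
    (h : ∀ W ⊆ V, f W ≤ g W) : Ex V ρ f ≤ Ex V ρ g :=
  sum_le_sum fun W hW => mul_le_mul_of_nonneg_left (h W (mem_powerset.1 hW))
    (mul_nonneg (pow_nonneg h0 _) (pow_nonneg (sub_nonneg.2 h1) _))

lemma Ex_const (V : Finset X) (ρ c : ℝ) : Ex V ρ (fun _ => c) = c := by
  induction V using Finset.induction_on with
  | empty => simp [Ex]
  | insert x V hx ih => rw [Ex_insert hx, ih]; ring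

lemma Ex_union (V : Finset X) (ρ σ : ℝ) (f : Finset X → ℝ) :
    Ex V ρ (fun W => Ex V σ fun W' => f (W ∪ W')) = Ex V (ρ + σ - ρ * σ) f := by
  induction V using Finset.induction_on generalizing f with
  | empty => simp [Ex]
  | insert x V hx ih =>
    simp only [Ex_insert hx, Ex_lin, insert_union, union_insert, insert_idem]
    rw [ih, ih fun W => f (insert x W)]
    ring

lemma Ex_sub (V : Finset X) (ρ : ℝ) {I : Finset X} (hI : I ⊆ V) :
    Ex V ρ (fun W => if I ⊆ W then 1 else 0) = ρ ^ #I := by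
  induction V using Finset.induction_on generalizing I with
  | empty => simp [Ex, subset_empty.1 hI]
  | insert x V hx ih =>
    rw [Ex_insert hx]
    simp only [subset_insert_iff]
    rw [ih (subset_insert_iff.1 hI)]
    by_cases h : x ∈ I
    · rw [Ex, sum_eq_zero fun W hW => by
        rw [if_neg fun h' => hx (mem_powerset.1 hW (h' h)), mul_zero], ← card_erase_add_one h]
      ring
    · rw [ih ((subset_insert_iff_of_notMem h).1 hI), erase_eq_of_notMem h]; ring

lemma sum_le_sum_of_injOn {α β : Type} [DecidableEq β] {s : Finset α} {t : Finset β} {f : α → ℝ}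
    {g : β → ℝ} (e : α → β) (he : Set.InjOn e s) (ht : s.image e ⊆ t) (h : ∀ a ∈ s, f a ≤ g (e a))
    (hg : ∀ b ∈ t, b ∉ s.image e → 0 ≤ g b) : ∑ a ∈ s, f a ≤ ∑ b ∈ t, g b :=
  (sum_le_sum h).trans ((sum_image he).symm.trans_le (sum_le_sum_of_subset_of_nonneg ht hg))

/-- minimal fragments -/
def Fr (F : Finset (Finset X)) (Z T : Finset X) : Prop :=
  (∃ H ∈ F, H ⊆ Z) ∧ ∀ H ∈ F, H ⊆ Z → T ⊆ H

lemma exists_fr {F : Finset (Finset X)} (W : Finset X) {H : Finset X} (hH : H ∈ F) :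
    ∃ T ⊆ H, Disjoint W T ∧ Fr F (W ∪ T) T := by
  obtain ⟨H', h1, h2⟩ := exists_min_image (F.filter (· ⊆ W ∪ H)) (fun H' => #(H' \ W))
    ⟨H, mem_filter.2 ⟨hH, subset_union_right⟩⟩
  obtain ⟨h1, h3⟩ := mem_filter.1 h1
  have h4 : H' \ W ⊆ H := by grind
  refine ⟨H' \ W, h4, disjoint_sdiff, ⟨H', h1, by grind⟩, fun K hK h => ?_⟩
  have := eq_of_subset_of_card_le (show K \ W ⊆ H' \ W by grind)
    (h2 K (mem_filter.2 ⟨hK, h.trans (union_subset_union_right h4)⟩))
  rw [← this]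
  exact sdiff_subset

open Classical in
lemma cost_le (V : Finset X) {p : ℝ} (h0 : 0 ≤ p) (h1 : 16 * p ≤ 1) (F : Finset (Finset X)) (k : ℕ)
    (hF : ∀ H ∈ F, #H < 2 ^ (k + 1)) :
    Ex V (16 * p) (fun W => ∑ T ∈ V.powerset with Disjoint W T ∧ Fr F (W ∪ T) T ∧ 2 ^ k ≤ #T,
      p ^ #T) ≤ (1 / 4) ^ (k + 1) := by
  have hw : ∀ a b : ℕ, 0 ≤ (16 * p) ^ a * (1 - 16 * p) ^ b := fun a b =>
    mul_nonneg (by positivity) (pow_nonneg (by linarith) _)
  calc _ ≤ Ex V (16 * p) fun Z => ∑ T ∈ V.powerset with Fr F Z T ∧ 2 ^ k ≤ #T, (1 / 16 : ℝ) ^ #T := by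
        simp only [Ex, mul_sum, sum_filter]
        rw [sum_comm, sum_comm (s := V.powerset) (f := fun Z T => _ * if Fr F Z T ∧ _ then _ else _)]
        refine sum_le_sum fun T hT => ?_
        simp only [mul_ite, mul_zero, ← sum_filter]
        refine sum_le_sum_of_injOn (· ∪ T) (fun W hW W' hW' h => ?_) (fun Z hZ => ?_)
          (fun W hW => ?_) fun Z _ _ => mul_nonneg (hw _ _) (by positivity)
        · simp only [coe_filter, Set.mem_ofPred_eq] at hW hW'
          rw [← union_sdiff_cancel_right hW.2.1, ← union_sdiff_cancel_right hW'.2.1]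
          exact congrArg (· \ T) h
        · obtain ⟨W, hW, rfl⟩ := mem_image.1 hZ
          simp only [mem_filter, mem_powerset] at hW hT ⊢
          exact ⟨union_subset hW.1 hT, hW.2.2⟩
        · simp only [mem_filter, mem_powerset] at hW hT
          have e : (16 * p) ^ #T * (1 / 16) ^ #T = p ^ #T := by rw [← mul_pow]; congr 1; ring
          rw [card_union_of_disjoint hW.2.1, pow_add, ← e]
          have := pow_le_pow_of_le_one (by linarith : 0 ≤ 1 - 16 * p) (by linarith)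
            (show #V - (#W + #T) ≤ #V - #W by omega)
          calc _ = (16 * p) ^ #W * (16 * p) ^ #T * (1 / 16) ^ #T * (1 - 16 * p) ^ (#V - #W) := by ring
            _ ≤ (16 * p) ^ #W * (16 * p) ^ #T * (1 / 16) ^ #T * (1 - 16 * p) ^ (#V - (#W + #T)) :=
              mul_le_mul_of_nonneg_left this (by positivity)
            _ = _ := by ring
    _ ≤ Ex V (16 * p) fun _ => (1 / 4) ^ (k + 1) := by
        refine Ex_mono (by positivity) h1 fun Z _ => ?_
        by_cases h : ∃ H ∈ F, H ⊆ Z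
        swap
        · rw [sum_eq_zero fun T hT => absurd (mem_filter.1 hT).2.1.1 h]; positivity
        obtain ⟨H, hH, hZ⟩ := h
        calc _ ≤ ∑ T ∈ V.powerset with Fr F Z T ∧ 2 ^ k ≤ #T, (1 / 16 : ℝ) ^ 2 ^ k :=
              sum_le_sum fun T hT => pow_le_pow_of_le_one (by norm_num) (by norm_num)
                (mem_filter.1 hT).2.2
          _ ≤ ∑ T ∈ H.powerset, (1 / 16 : ℝ) ^ 2 ^ k := sum_le_sum_of_subset_of_nonneg
              (fun T hT => mem_powerset.2 ((mem_filter.1 hT).2.1.2 H hH hZ)) fun _ _ _ => by positivity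
          _ ≤ 2 ^ 2 ^ (k + 1) * (1 / 16 : ℝ) ^ 2 ^ k := by
              rw [sum_const, card_powerset, nsmul_eq_mul]
              push_cast
              gcongr
              · norm_num
              · exact (hF H hH).le
          _ = (1 / 4) ^ 2 ^ k := by rw [pow_succ', pow_mul, ← mul_pow]; norm_num
          _ ≤ _ := pow_le_pow_of_le_one (by norm_num) (by norm_num) Nat.lt_two_pow_self
    _ = _ := Ex_const _ _ _

open Classical in
theorem park_pham (V : Finset X) {p : ℝ} (h0 : 0 ≤ p) (h1 : 16 * p ≤ 1) (k : ℕ) :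
    ∀ (F : Finset (Finset X)) (c : ℝ), (∀ H ∈ F, H ⊆ V) → (∀ H ∈ F, #H < 2 ^ k) →
    (∀ G : Finset (Finset X), (∀ H ∈ F, ∃ S ∈ G, S ⊆ H) → c ≤ ∑ S ∈ G, p ^ #S) →
    c * Ex V (1 - (1 - 16 * p) ^ k) (fun W => if ∃ H ∈ F, H ⊆ W then 0 else 1) ≤
      (1 - (1 / 4) ^ k) / 3 := by
  have r0 : ∀ k : ℕ, 0 ≤ 1 - (1 - 16 * p) ^ k := fun k =>
    sub_nonneg.2 (pow_le_one₀ (by linarith) (by linarith))
  have r1 : ∀ k : ℕ, 1 - (1 - 16 * p) ^ k ≤ 1 := fun k => sub_le_self _ (pow_nonneg (by linarith) _)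
  have e0 : ∀ (k : ℕ) (F : Finset (Finset X)), 0 ≤ Ex V (1 - (1 - 16 * p) ^ k)
      (fun W => if ∃ H ∈ F, H ⊆ W then 0 else 1) := fun k F =>
    (Ex_const V _ 0).symm.trans_le (Ex_mono (r0 k) (r1 k) fun W _ => by split_ifs <;> simp)
  induction k with
  | zero =>
    intro F c _ h hc
    rcases F.eq_empty_or_nonempty with rfl | ⟨H, hH⟩
    · simpa [Ex_const] using hc ∅ fun H hH => absurd hH (notMem_empty H)
    · have : ∀ W, ∃ H ∈ F, H ⊆ W := fun W => ⟨H, hH, by
        rw [card_eq_zero.1 (Nat.lt_one_iff.1 (h H hH))]; exact empty_subset _⟩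
      simp [this, Ex_const]
  | succ k ih =>
    intro F c hV h hc
    rcases lt_or_ge c 0 with c0 | c0
    · have : (1 / 4 : ℝ) ^ (k + 1) ≤ 1 := pow_le_one₀ (by norm_num) (by norm_num)
      nlinarith [e0 (k + 1) F]
    have hcost := cost_le V h0 h1 F k h
    rw [show 1 - (1 - 16 * p) ^ (k + 1) = 16 * p + (1 - (1 - 16 * p) ^ k) -
      16 * p * (1 - (1 - 16 * p) ^ k) by ring, ← Ex_union]
    have key : ∀ W ⊆ V, c * (Ex V (1 - (1 - 16 * p) ^ k) fun W' =>
        if ∃ H ∈ F, H ⊆ W ∪ W' then 0 else 1) + 0 * 0 ≤ 1 * ∑ T ∈ V.powerset with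
        Disjoint W T ∧ Fr F (W ∪ T) T ∧ 2 ^ k ≤ #T, p ^ #T + 1 * ((1 - (1 / 4) ^ k) / 3) := by
      intro W _
      obtain ⟨U, hU⟩ : ∃ U, U = V.powerset.filter fun T =>
        Disjoint W T ∧ Fr F (W ∪ T) T ∧ 2 ^ k ≤ #T := ⟨_, rfl⟩
      obtain ⟨F', hF'⟩ : ∃ F', F' = V.powerset.filter fun T => Fr F (W ∪ T) T ∧ #T < 2 ^ k := ⟨_, rfl⟩
      have a1 := ih F' (c - ∑ T ∈ U, p ^ #T)
        (fun T hT => mem_powerset.1 (mem_filter.1 (hF' ▸ hT)).1)
        (fun T hT => (mem_filter.1 (hF' ▸ hT)).2.2) fun G hG => by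
          have := hc (G ∪ U) fun H hH => by
            obtain ⟨T, t1, t2, t3⟩ := exists_fr W hH
            have t4 := mem_powerset.2 (t1.trans (hV H hH))
            rcases lt_or_ge #T (2 ^ k) with t5 | t5
            · obtain ⟨S, s1, s2⟩ := hG T (hF' ▸ mem_filter.2 ⟨t4, t3, t5⟩)
              exact ⟨S, mem_union_left _ s1, s2.trans t1⟩
            · exact ⟨T, mem_union_right _ (hU ▸ mem_filter.2 ⟨t4, t2, t3, t5⟩), t1⟩
          have h2 := sum_union_inter (s₁ := G) (s₂ := U) (f := fun S => p ^ #S)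
          have : 0 ≤ ∑ S ∈ G ∩ U, p ^ #S := by positivity
          linarith
      have a2 : (Ex V (1 - (1 - 16 * p) ^ k) fun W' => if ∃ H ∈ F, H ⊆ W ∪ W' then 0 else 1) ≤
          Ex V (1 - (1 - 16 * p) ^ k) fun W' => if ∃ H ∈ F', H ⊆ W' then 0 else 1 := by
        refine Ex_mono (r0 k) (r1 k) fun W' _ => ?_
        by_cases h' : ∃ H ∈ F', H ⊆ W'
        · obtain ⟨T, t1, t2⟩ := id h'
          obtain ⟨H, s1, s2⟩ := (mem_filter.1 (hF' ▸ t1)).2.1.1
          rw [if_pos h', if_pos ⟨H, s1, s2.trans (union_subset_union_right t2)⟩]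
        · rw [if_neg h']; split_ifs <;> simp
      have a3 : (Ex V (1 - (1 - 16 * p) ^ k) fun W' => if ∃ H ∈ F', H ⊆ W' then 0 else 1) ≤ 1 := by
        refine le_trans (Ex_mono (r0 k) (r1 k) fun W' _ => ?_) (Ex_const V _ 1).le
        split_ifs <;> simp
      have a4 : 0 ≤ ∑ T ∈ U, p ^ #T := by positivity
      rw [← hU]
      nlinarith [mul_le_mul_of_nonneg_left a2 c0, mul_le_mul_of_nonneg_left a3 a4]
    have := Ex_mono (by positivity) h1 key
    rw [Ex_lin, Ex_lin, Ex_const, Ex_const] at this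
    rw [pow_succ] at hcost ⊢
    linarith

end Vale.Agent.P064
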