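import Vale.Agent.P064.Ent
import Vale.Agent.P064.PP
import Vale.Agent.P064.Defs

/-! The second Kahn-Kalai conjecture. -/

namespace Vale.Agent.P064

open Finset Real Pointwise SimpleGraph

theorem abstract {Γ : Type} [Group Γ] [Fintype Γ] {X : Type} [Fintype X] [DecidableEq X]
    [MulAction Γ X] {V E : Finset X} (hV : ∀ g : Γ, g • E ⊆ V) {q : ℝ} (hq : 0 < q)
    (hS : ∀ A ⊆ E, 1 ≤ #(univ.image fun g : Γ => g • A) * q ^ #A) (h1 : 16 * (exp 100 * q) ≤ 1)
    {k : ℕ} (hk : #E < 2 ^ k) (f : Finset X → ℝ) (f0 : ∀ W, 0 ≤ f W)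
    (f1 : ∀ W (g : Γ), g • E ⊆ W → 1 ≤ f W) : 1 / 2 ≤ Ex V (1 - (1 - 16 * (exp 100 * q)) ^ k) f := by
  classical
  have hΓ : (0 : ℝ) < Fintype.card Γ := by exact_mod_cast Fintype.card_pos
  obtain ⟨φ, hφ, this⟩ : ∃ φ : Finset X → ℝ, (∀ W, ((∃ H ∈ univ.image fun g : Γ => g • E, H ⊆ W) →
      φ W = 0) ∧ ((¬ ∃ H ∈ univ.image fun g : Γ => g • E, H ⊆ W) → φ W = 1)) ∧
      1 * Ex V (1 - (1 - 16 * (exp 100 * q)) ^ k) φ ≤ (1 - (1 / 4) ^ k) / 3 :=
    ⟨_, fun W => ⟨fun h => if_pos h, fun h => if_neg h⟩, park_pham V (by positivity) h1 k _ 1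
    (by simpa using hV) (by simpa using hk) fun G hG => by
      refine le_trans ?_ (sum_le_sum fun S _ => spread (Γ := Γ) hq hS S)
      rw [← sum_div, one_le_div hΓ, ← card_univ]
      norm_cast
      refine le_trans (card_le_card fun g _ => ?_) card_biUnion_le
      obtain ⟨S, s1, s2⟩ := hG (g⁻¹ • E) (by simp)
      exact mem_biUnion.2 ⟨S, s1, by simpa [smul_finset_subset_iff] using s2⟩⟩
  have r0 : 0 ≤ 1 - (1 - 16 * (exp 100 * q)) ^ k :=
    sub_nonneg.2 (pow_le_one₀ (by linarith) (by linarith [mul_pos (exp_pos 100) hq]))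
  have r1 : 1 - (1 - 16 * (exp 100 * q)) ^ k ≤ 1 := sub_le_self _ (pow_nonneg (by linarith) _)
  have h2 := Ex_mono (V := V) r0 r1 (f := fun _ => 1) (g := fun W => 1 * f W + 1 * φ W)
    fun W _ => by
      by_cases h : ∃ H ∈ univ.image fun g : Γ => g • E, H ⊆ W
      · obtain ⟨H, h1, h2⟩ := id h
        obtain ⟨g, -, rfl⟩ := mem_image.1 h1
        linarith [f1 W g h2, (hφ W).1 h]
      · linarith [f0 W, (hφ W).2 h]
  rw [Ex_const, Ex_lin] at h2
  have : (0 : ℝ) ≤ (1 / 4) ^ k := by positivity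
  linarith

lemma gnp_eq (n : ℕ) (p : ℝ) (f : SimpleGraph (Fin n) → ℝ) :
    gnp n p f = Ex (⊤ : SimpleGraph (Fin n)).edgeFinset p fun W => f (fromEdgeSet W) := by
  classical
  rw [gnp, Ex, card_edgeFinset_top_eq_card_choose_two, Fintype.card_fin]
  refine sum_nbij' (fun G => G.edgeFinset) (fun W => fromEdgeSet W) (fun G _ => ?_) (by simp)
    (fun G _ => by simp) (fun W hW => ?_) fun G _ => ?_
  · exact mem_coe.2 (mem_powerset.2 (edgeFinset_mono le_top))
  · ext e
    have := @mem_powerset.1 (mem_coe.1 hW) e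
    simp only [mem_edgeFinset, edgeSet_fromEdgeSet, edgeSet_top, Set.mem_sdiff, mem_coe] at this ⊢
    exact ⟨fun h => h.1, fun h => ⟨h, this h⟩⟩
  · simp [← Set.ncard_coe_finset]

/-- relabelling of vertices acts on pairs -/
@[reducible] def act (n : ℕ) : MulAction (Equiv.Perm (Fin n)) (Sym2 (Fin n)) where
  smul g e := e.map g
  one_smul e := by show e.map _ = e; simp
  mul_smul g h e := by show e.map _ = (e.map _).map _; simp [Sym2.map_map]

attribute [local instance] act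

lemma act_mk {n : ℕ} (g : Equiv.Perm (Fin n)) (a b : Fin n) : g • s(a, b) = s(g a, g b) := rfl

variable {n m : ℕ} (H : SimpleGraph (Fin m)) (ι : Fin m ↪ Fin n)

open Classical in
/-- the edges of the standard copy -/
noncomputable def ed : Finset (Sym2 (Fin n)) := H.edgeFinset.image (Sym2.map ι)

lemma mem_ed {e : Sym2 (Fin n)} : e ∈ ed H ι ↔ ∃ u v, H.Adj u v ∧ s(ι u, ι v) = e := by
  simp [ed, Sym2.exists]

lemma ed_sub (g : Equiv.Perm (Fin n)) : g • ed H ι ⊆ (⊤ : SimpleGraph (Fin n)).edgeFinset := by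
  intro e he
  obtain ⟨e', h, rfl⟩ := mem_smul_finset.1 he
  obtain ⟨u, v, a, rfl⟩ := (mem_ed H ι).1 h
  simpa [act_mk] using a.ne

lemma contains {W : Finset (Sym2 (Fin n))} {g : Equiv.Perm (Fin n)} (h : g • ed H ι ⊆ W) :
    H ⊑ fromEdgeSet (W : Set (Sym2 (Fin n))) :=
  ⟨⟨⟨fun u => g (ι u), fun {u v} a => by
    have := h (smul_mem_smul_finset ((mem_ed H ι).2 ⟨u, v, a, rfl⟩))
    simpa [act_mk, a.ne] using this⟩, g.injective.comp ι.injective⟩⟩

/-- the subgraph spanned by a set of edges -/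
def sub (A : Finset (Sym2 (Fin n))) : H.Subgraph where
  verts := {u | ∃ v, H.Adj u v ∧ s(ι u, ι v) ∈ A}
  Adj u v := H.Adj u v ∧ s(ι u, ι v) ∈ A
  adj_sub h := h.1
  edge_vert h := ⟨_, h⟩
  symm := ⟨fun _ _ h => ⟨h.1.symm, Sym2.eq_swap ▸ h.2⟩⟩

lemma count_le {A : Finset (Sym2 (Fin n))} (hA : A ⊆ ed H ι) (W : Finset (Sym2 (Fin n))) :
    (fromEdgeSet (W : Set (Sym2 (Fin n)))).copyCount (sub H ι A).coe ≤
      #{B ∈ univ.image fun g : Equiv.Perm (Fin n) => g • A | B ⊆ W} := by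
  classical
  rw [copyCount]
  refine card_le_card_of_injOn (fun G' => univ.filter (· ∈ G'.edgeSet)) (fun G' hG' => ?_)
    fun G₁ h₁ G₂ h₂ h => ?_
  · obtain ⟨φ⟩ := (mem_filter.1 hG').2
    obtain ⟨σ, hσ⟩ := Equiv.Perm.exists_extending_pair (f := fun u : (sub H ι A).verts => ι u)
      (g := fun u => (φ u : Fin n)) (ι.injective.comp Subtype.val_injective)
      (Subtype.val_injective.comp φ.injective)
    refine mem_coe.2 (mem_filter.2 ⟨mem_image.2 ⟨σ, mem_univ _, ?_⟩, fun e he => ?_⟩)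
    · ext e
      simp only [mem_smul_finset, mem_filter, mem_univ, true_and]
      constructor
      · rintro ⟨e', h, rfl⟩
        obtain ⟨u, v, a, rfl⟩ := (mem_ed H ι).1 (hA h)
        have := φ.map_rel_iff.2 (show (sub H ι A).coe.Adj ⟨u, v, a, h⟩
          ⟨v, u, a.symm, Sym2.eq_swap ▸ h⟩ from ⟨a, h⟩)
        rw [Subgraph.coe_adj, ← hσ, ← hσ] at this
        exact this
      · induction e using Sym2.ind with
        | h a b =>
          intro h
          have := φ.symm.map_rel_iff.2 (show G'.coe.Adj ⟨a, G'.edge_vert h⟩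
            ⟨b, G'.edge_vert h.symm⟩ from h)
          refine ⟨_, this.2, ?_⟩
          rw [act_mk, hσ, hσ]
          simp
    · have := G'.edgeSet_subset (mem_filter.1 he).2
      rw [edgeSet_fromEdgeSet] at this
      exact this.1
  · have adj : ∀ a b, G₁.Adj a b ↔ G₂.Adj a b := fun a b => by
      simpa using Finset.ext_iff.1 h s(a, b)
    have ver : ∀ G' : (fromEdgeSet (W : Set (Sym2 (Fin n)))).Subgraph,
        Nonempty ((sub H ι A).coe ≃g G'.coe) → ∀ a, a ∈ G'.verts ↔ ∃ b, G'.Adj a b := by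
      rintro G' ⟨φ⟩ a
      refine ⟨fun h => ?_, fun ⟨b, h⟩ => G'.edge_vert h⟩
      obtain ⟨v, h1, h2⟩ := (φ.symm ⟨a, h⟩).2
      have := φ.map_rel_iff.2 (show (sub H ι A).coe.Adj (φ.symm ⟨a, h⟩)
        ⟨v, _, h1.symm, Sym2.eq_swap ▸ h2⟩ from ⟨h1, h2⟩)
      rw [Subgraph.coe_adj] at this
      exact ⟨_, by simpa using this⟩
    ext a b
    · simp only [ver G₁ (mem_filter.1 h₁).2, ver G₂ (mem_filter.1 h₂).2, adj]
    · exact adj a b

lemma gnp_le {A : Finset (Sym2 (Fin n))} (hA : A ⊆ ed H ι) {q : ℝ} (h0 : 0 ≤ q) (h1 : q ≤ 1) :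
    gnp n q (fun G => G.copyCount (sub H ι A).coe) ≤
      #(univ.image fun g : Equiv.Perm (Fin n) => g • A) * q ^ #A := by
  rw [gnp_eq]
  refine (Ex_mono h0 h1 (g := fun W => ∑ B ∈ univ.image fun g : Equiv.Perm (Fin n) => g • A,
    if B ⊆ W then 1 else 0) fun W _ => ?_).trans (le_of_eq ?_)
  · rw [sum_boole]; exact_mod_cast count_le H ι hA W
  · simp only [Ex, mul_sum]
    rw [sum_comm, ← nsmul_eq_mul, ← sum_const]
    refine sum_congr rfl fun B hB => ?_
    obtain ⟨g, -, rfl⟩ := mem_image.1 hB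
    rw [← card_smul_finset g A]
    exact Ex_sub _ q ((smul_finset_subset_smul_finset hA).trans (ed_sub H ι g))

theorem main (hn : 2 ≤ n) (hm : m ≤ n) (hH : H.edgeSet.Nonempty) :
    pc n H ≤ 160 * exp 100 * pE n H * log n := by
  classical
  let ι := Fin.castLEEmb hm
  have l2 := log_two_gt_d9
  have ln : log 2 ≤ log n := log_le_log two_pos (by exact_mod_cast hn)
  have hb : BddBelow {p : ℝ | 0 ≤ p ∧ p ≤ 1 ∧
    1 / 2 ≤ gnp n p fun G => if 0 < G.copyCount H then 1 else 0} := ⟨0, fun p hp => hp.1⟩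
  have key : ∀ q : ℝ, 0 ≤ q → q ≤ 1 → (∀ F : H.Subgraph, 1 / 2 ≤ gnp n q fun G => G.copyCount F.coe) →
      pc n H ≤ 160 * exp 100 * q * log n := by
    intro q q0 q1 hq
    have hS := fun A (hA : A ⊆ ed H ι) => (hq _).trans (gnp_le H ι hA q0 q1)
    have hE : (ed H ι).Nonempty := by
      obtain ⟨e, he⟩ := hH
      exact ⟨_, mem_image_of_mem _ (mem_edgeFinset.2 he)⟩
    have qp : 0 < q := by
      refine lt_of_le_of_ne q0 fun h => ?_
      have := hS _ Subset.rfl
      rw [← h, zero_pow hE.card_pos.ne'] at this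
      linarith
    have ep : 0 < exp 100 * q := by positivity
    rcases le_or_gt (16 * (exp 100 * (2 * q))) 1 with h1 | h1
    swap
    · have : pc n H ≤ 1 := by
        unfold pc
        rcases Set.eq_empty_or_nonempty {p : ℝ | 0 ≤ p ∧ p ≤ 1 ∧
          1 / 2 ≤ gnp n p fun G => if 0 < G.copyCount H then 1 else 0} with h | ⟨p, hp⟩
        · rw [h, Real.sInf_empty]; exact zero_le_one
        · exact (csInf_le hb hp).trans hp.2.1
      nlinarith
    obtain ⟨k, hk⟩ : ∃ k, k = Nat.log 2 #(ed H ι) := ⟨_, rfl⟩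
    have a1 := abstract (ed_sub H ι) (by positivity : 0 < 2 * q) (fun A hA => by
      rcases A.eq_empty_or_nonempty with rfl | h
      · simp
      · have : (2 : ℝ) ≤ 2 ^ #A := le_self_pow₀ one_le_two h.card_pos.ne'
        have := hS A hA
        rw [mul_pow, mul_left_comm]
        nlinarith) h1 (Nat.lt_pow_succ_log_self one_lt_two _)
      (fun W => if 0 < (fromEdgeSet (W : Set (Sym2 (Fin n)))).copyCount H then 1 else 0)
      (fun W => by split_ifs <;> simp) fun W g h => by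
        rw [if_pos (copyCount_pos.2 (contains H ι h))]
    rw [← hk, ← gnp_eq n _ fun G => if 0 < G.copyCount H then 1 else 0] at a1
    have a2 : pc n H ≤ _ := csInf_le hb ⟨sub_nonneg.2 (pow_le_one₀ (by linarith) (by linarith)),
      sub_le_self _ (pow_nonneg (by linarith) _), a1⟩
    have a3 := one_add_mul_le_pow (a := -(16 * (exp 100 * (2 * q)))) (by linarith) (k + 1)
    have a4 : 2 ^ k ≤ n ^ 2 := by
      refine (hk ▸ Nat.pow_log_le_self 2 hE.card_pos.ne').trans ?_
      have := card_le_card (ed_sub H ι 1)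
      rw [one_smul, card_edgeFinset_top_eq_card_choose_two, Fintype.card_fin] at this
      exact this.trans (Nat.choose_le_pow n 2)
    have a5 := log_le_log (x := 2 ^ k) (y := n ^ 2) (by positivity) (by exact_mod_cast a4)
    rw [log_pow, log_pow] at a5
    have a6 : (k : ℝ) + 1 ≤ 5 * log n := by
      have : (0 : ℝ) ≤ k := by positivity
      push_cast at a5
      nlinarith
    rw [← sub_eq_add_neg] at a3
    push_cast at a3
    rw [Nat.succ_eq_add_one] at a2
    nlinarith [mul_le_mul_of_nonneg_right a6 ep.le]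
  have c0 : 0 < 160 * exp 100 * log n := mul_pos (by positivity) (by linarith)
  rw [mul_right_comm, ← div_le_iff₀' c0]
  refine le_csInf ⟨1, zero_le_one, le_rfl, fun F => ?_⟩ fun q hq => ?_
  · refine le_trans ?_ (single_le_sum (fun G _ => by positivity) (mem_univ ⊤))
    have : 0 < (⊤ : SimpleGraph (Fin n)).copyCount F.coe := copyCount_pos.2
      ⟨⟨⟨fun u => ι u, fun {u v} a => by simpa [Subtype.val_inj] using a.ne⟩,
        ι.injective.comp Subtype.val_injective⟩⟩
    rw [← coe_edgeFinset, Set.ncard_coe_finset, card_edgeFinset_top_eq_card_choose_two]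
    have : (1 : ℝ) ≤ (⊤ : SimpleGraph (Fin n)).copyCount F.coe := by exact_mod_cast this
    simp only [Fintype.card_fin, one_pow, Nat.sub_self, pow_zero, one_mul]
    linarith
  · rw [div_le_iff₀' c0, mul_right_comm]
    exact key q hq.1 hq.2.1 hq.2.2

end Vale.Agent.P064
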