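import Mathlib

/-! Elementary entropy inequalities. -/

namespace Vale.Agent.P064

open Finset Real

/-- `t log t` -/
noncomputable def φ (t : ℝ) : ℝ := t * log t

/-- the homogeneous form of `p ^ (3/2)` -/
noncomputable def W (n y : ℝ) : ℝ := y * √(y / n)

lemma gibbs {Ω : Type} (s : Finset Ω) (m y : Ω → ℝ) (hm : ∀ ω, 0 ≤ m ω)
    (hy : ∀ ω, m ω ≠ 0 → 0 < y ω) :
    ∑ ω ∈ s, m ω * log (y ω) ≤ ∑ ω ∈ s, m ω * y ω - ∑ ω ∈ s, m ω := by
  rw [← sum_sub_distrib]
  refine sum_le_sum fun ω _ => ?_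
  by_cases h : m ω = 0
  · simp [h]
  · have := mul_le_mul_of_nonneg_left (log_le_sub_one_of_pos (hy ω h)) (hm ω)
    linarith

lemma W_nonneg (n : ℝ) {y : ℝ} (hy : 0 ≤ y) : 0 ≤ W n y := mul_nonneg hy (sqrt_nonneg _)

lemma W_sq {n y : ℝ} (hy : 0 ≤ y) (hn : y ≤ n) : n * √(y / n) ^ 2 = y := by
  rw [sq_sqrt (div_nonneg hy (hy.trans hn))]
  by_cases h : n = 0
  · subst h; linarith
  · field_simp

lemma W_tan {n y t : ℝ} (hy : 0 ≤ y) (hn : y ≤ n) (ht : 0 ≤ t) :
    3 / 2 * t * y - 1 / 2 * t ^ 3 * n ≤ W n y := by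
  have h := W_sq hy hn
  have hs := sqrt_nonneg (y / n)
  rw [W]
  generalize √(y / n) = s at *
  subst h
  nlinarith [mul_nonneg (hy.trans hn) (mul_nonneg (sq_nonneg (s - t)) (by linarith : 0 ≤ 2 * s + t))]

lemma W_add {n y n' y' : ℝ} (hy : 0 ≤ y) (hn : y ≤ n) (hy' : 0 ≤ y') (hn' : y' ≤ n') :
    W (n + n') (y + y') ≤ W n y + W n' y' := by
  have h1 := W_tan hy hn (sqrt_nonneg ((y + y') / (n + n')))
  have h2 := W_tan hy' hn' (sqrt_nonneg ((y + y') / (n + n')))
  have h := W_sq (add_nonneg hy hy') (add_le_add hn hn')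
  rw [W]
  generalize √((y + y') / (n + n')) = t at *
  have : t ^ 3 * (n + n') = t * (y + y') := by rw [← h]; ring
  nlinarith

lemma mul_log_le {b y : ℝ} (hb : 0 ≤ b) (hy : 0 ≤ y) (h : b ≠ 0 → y ≠ 0) :
    b * log y - φ b ≤ y - b := by
  rw [φ]
  by_cases h0 : b = 0
  · simp [h0, hy]
  · have hb' : 0 < b := lt_of_le_of_ne hb (Ne.symm h0)
    have := mul_le_mul_of_nonneg_left
      (log_le_sub_one_of_pos (div_pos (lt_of_le_of_ne hy (h h0).symm) hb')) hb
    rw [log_div (h h0) h0, mul_sub b (y / b), mul_div_cancel₀ _ h0] at this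
    linarith

lemma step {ι : Type} [Fintype ι] (a b : ι → ℝ) (c : ι → Prop) [DecidablePred c]
    (ha : ∀ i, 0 ≤ a i) (hb : ∀ i, 0 ≤ b i) (hc : ∀ i, b i ≠ 0 → c i) :
    3 / 2 * ∑ i, (φ (a i + b i) - φ (a i) - φ (b i)) +
      1 / 2 * (φ (∑ i, a i) + φ (∑ i, b i) - φ (∑ i, a i + ∑ i, b i)) ≤
      1 / 2 * ∑ i, b i + W (∑ i, a i + ∑ i, b i) (∑ i, if c i then a i + b i else 0) := by
  have hY0 : 0 ≤ ∑ i, if c i then a i + b i else 0 :=
    sum_nonneg fun i _ => by split_ifs <;> linarith [ha i, hb i]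
  by_cases hR : ∑ i, b i = 0
  · have := (sum_eq_zero_iff_of_nonneg fun i _ => hb i).1 hR
    have hW := W_nonneg (∑ i, a i + ∑ i, b i) hY0
    rw [sum_eq_zero fun i hi => by simp [this i hi, φ]]
    rw [hR] at hW ⊢
    simpa [φ] using hW
  have hRY : ∑ i, b i ≤ ∑ i, if c i then a i + b i else 0 := sum_le_sum fun i _ => by
    split_ifs with h
    · linarith [ha i]
    · exact le_of_eq (by by_contra h0; exact h (hc i h0))
  have hYn : (∑ i, if c i then a i + b i else 0) ≤ ∑ i, a i + ∑ i, b i := by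
    rw [← sum_add_distrib]
    exact sum_le_sum fun i _ => by split_ifs <;> linarith [ha i, hb i]
  have hA : 0 ≤ ∑ i, a i := sum_nonneg fun i _ => ha i
  have hR0 : 0 < ∑ i, b i := lt_of_le_of_ne (sum_nonneg fun i _ => hb i) (Ne.symm hR)
  obtain ⟨Y, hY⟩ : ∃ Y, Y = ∑ i, if c i then a i + b i else 0 := ⟨_, rfl⟩
  obtain ⟨R, hRR⟩ : ∃ R, R = ∑ i, b i := ⟨_, rfl⟩
  rw [← hY] at hY0 hRY hYn ⊢
  rw [← hRR] at hR hRY hYn hR0 ⊢
  have hYp : 0 < Y := by linarith
  have h1 : ∑ i, (φ (a i + b i) - φ (a i) - φ (b i)) ≤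
      ∑ i, ((if c i then a i + b i else 0) * (R / Y) - b i * log (R / Y)) := by
    refine sum_le_sum fun i _ => ?_
    by_cases h0 : b i = 0
    · have : 0 ≤ (if c i then a i + b i else 0) * (R / Y) :=
        mul_nonneg (by split_ifs <;> linarith [ha i]) (by positivity)
      simpa [h0, φ] using this
    · have hab : 0 < a i + b i := add_pos_of_nonneg_of_pos (ha i) (lt_of_le_of_ne (hb i) (Ne.symm h0))
      have e1 := mul_log_le (ha i) hab.le fun _ => hab.ne'
      have e2 := mul_log_le (hb i) (y := (a i + b i) * (R / Y)) (by positivity) fun _ => by positivity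
      rw [log_mul hab.ne' (by positivity)] at e2
      rw [if_pos (hc i h0), φ]
      nlinarith
  rw [sum_sub_distrib (f := fun i => (if c i then a i + b i else 0) * (R / Y)), ← sum_mul,
    ← sum_mul, ← hY, ← hRR, mul_div_cancel₀ _ hYp.ne',
    log_div hR hYp.ne'] at h1
  generalize ∑ i, a i = A at *
  have hn : 0 < A + R := by linarith
  have h2 : φ A ≤ A * log (A + R) := by
    rw [φ]
    by_cases h0 : A = 0
    · simp [h0]
    · exact mul_le_mul_of_nonneg_left (log_le_log (lt_of_le_of_ne hA (Ne.symm h0)) (by linarith)) hA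
  have h3 := mul_log_le hR0.le (W_nonneg (A + R) hYp.le) fun _ => by unfold W; positivity
  rw [W, log_mul hYp.ne' (by positivity), log_sqrt (by positivity), log_div hYp.ne' hn.ne'] at h3
  simp only [φ, W] at *
  nlinarith

variable {X : Type} [Fintype X] [DecidableEq X]

theorem key (S : Finset X) : ∀ m : Finset X → Finset X → ℝ, (∀ A T, 0 ≤ m A T) →
    (∀ A T, m A T ≠ 0 → T ⊆ A) →
    3 / 2 * (∑ A, φ (∑ T ∈ S.powerset, m A T) - ∑ T ∈ S.powerset, ∑ A, φ (m A T)) +
      1 / 2 * (∑ T ∈ S.powerset, φ (∑ A, m A T) - φ (∑ T ∈ S.powerset, ∑ A, m A T)) ≤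
      1 / 2 * ∑ T ∈ S.powerset, ∑ A, m A T * #T +
      ∑ y ∈ S, ∑ T ∈ S.powerset, W (∑ A, m A T) (∑ A, if y ∈ A then m A T else 0) := by
  induction S using Finset.induction_on with
  | empty => intro m _ _; simp
  | insert x S hx ih =>
    intro m h0 hs
    have h1 := ih (fun A T => m A T + m A (insert x T)) (fun A T => add_nonneg (h0 _ _) (h0 _ _))
      (fun A T h => by
        by_cases h' : m A T = 0
        · exact (subset_insert x T).trans (hs _ _ (by simpa [h'] using h))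
        · exact hs _ _ h')
    have h2 := sum_le_sum fun T (_ : T ∈ S.powerset) => step (fun A => m A T)
      (fun A => m A (insert x T)) (fun A => x ∈ A) (fun A => h0 _ _) (fun A => h0 _ _)
      fun A h => hs _ _ h (mem_insert_self x T)
    have h3 : ∀ y T, W (∑ A, m A T + ∑ A, m A (insert x T))
        (∑ A, if y ∈ A then m A T + m A (insert x T) else 0) ≤
        W (∑ A, m A T) (∑ A, if y ∈ A then m A T else 0) +
        W (∑ A, m A (insert x T)) (∑ A, if y ∈ A then m A (insert x T) else 0) := by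
      intro y T
      have k1 : ∀ T, 0 ≤ ∑ A, if y ∈ A then m A T else 0 := fun T =>
        sum_nonneg fun A _ => by split_ifs <;> simp [h0]
      have k2 : ∀ T, (∑ A, if y ∈ A then m A T else 0) ≤ ∑ A, m A T := fun T =>
        sum_le_sum fun A _ => by split_ifs <;> simp [h0]
      refine le_trans (le_of_eq ?_) (W_add (k1 _) (k2 _) (k1 _) (k2 _))
      rw [← sum_add_distrib (f := fun A => if y ∈ A then m A T else 0)]
      congr 1
      exact sum_congr rfl fun A _ => by split_ifs <;> simp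
    have h4 := sum_le_sum fun T (_ : T ∈ S.powerset) => h3 x T
    have h5 := sum_le_sum fun y (_ : y ∈ S) => sum_le_sum fun T (_ : T ∈ S.powerset) => h3 y T
    have h6 : ∑ T ∈ S.powerset, ∑ A, m A (insert x T) * #(insert x T) =
        ∑ T ∈ S.powerset, ∑ A, m A (insert x T) * #T + ∑ T ∈ S.powerset, ∑ A, m A (insert x T) := by
      simp only [← sum_add_distrib]
      refine sum_congr rfl fun T hT => sum_congr rfl fun A _ => ?_
      rw [card_insert_of_notMem fun h => hx (mem_powerset.1 hT h)]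
      push_cast; ring
    simp only [sum_powerset_insert hx, sum_insert hx, h6]
    simp only [sum_add_distrib, sum_sub_distrib, add_mul, ← mul_sum] at h1 h2 h4 h5 ⊢
    linarith

end Vale.Agent.P064
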