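import Vale.Agent.P064.Key

/-! Symmetrisation under a finite group and the extremal law. -/

namespace Vale.Agent.P064

open Finset Real Pointwise

variable (Γ : Type) [Group Γ] [Fintype Γ]

section
variable {Ω Ω' : Type} [MulAction Γ Ω] [MulAction Γ Ω']

/-- average over the group -/
noncomputable def sym (f : Ω → ℝ) (a : Ω) : ℝ := (∑ g : Γ, f (g • a)) / Fintype.card Γ

variable {Γ}

lemma sym_smul (f : Ω → ℝ) (g : Γ) (a : Ω) : sym Γ f (g • a) = sym Γ f a := by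
  unfold sym
  congr 1
  exact Fintype.sum_equiv (Equiv.mulRight g) _ _ fun h => by simp [mul_smul]

lemma sym_mono {f f' : Ω → ℝ} {a : Ω} (h : ∀ g : Γ, f (g • a) ≤ f' (g • a)) :
    sym Γ f a ≤ sym Γ f' a :=
  div_le_div_of_nonneg_right (sum_le_sum fun g _ => h g) (by positivity)

lemma sym_nonneg {f : Ω → ℝ} (hf : ∀ a, 0 ≤ f a) (a : Ω) : 0 ≤ sym Γ f a :=
  div_nonneg (sum_nonneg fun _ _ => hf _) (by positivity)

lemma sym_pos {f : Ω → ℝ} (hf : ∀ a, 0 ≤ f a) {a : Ω} (h : f a ≠ 0) : 0 < sym Γ f a :=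
  div_pos (sum_pos' (fun _ _ => hf _) ⟨1, mem_univ _, by simpa using lt_of_le_of_ne (hf a) h.symm⟩)
    (by exact_mod_cast Fintype.card_pos)

lemma sym_mul (f ψ : Ω → ℝ) (hψ : ∀ (g : Γ) a, ψ (g • a) = ψ a) (a : Ω) :
    sym Γ (fun a => f a * ψ a) a = sym Γ f a * ψ a := by
  simp only [sym, hψ, ← sum_mul]; ring

lemma sum_sym' [Fintype Ω] (f : Ω → ℝ) : ∑ a, sym Γ f a = ∑ a, f a := by
  have : ∀ g : Γ, ∑ a, f (g • a) = ∑ a, f a := fun g =>
    Fintype.sum_equiv (MulAction.toPerm g) _ _ fun _ => rfl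
  simp only [sym, ← sum_div]
  rw [sum_comm]
  simp only [this, sum_const, card_univ, nsmul_eq_mul]
  have : (Fintype.card Γ : ℝ) ≠ 0 := by exact_mod_cast Fintype.card_ne_zero
  field_simp

lemma sum_sym [Fintype Ω] (f ψ : Ω → ℝ) (hψ : ∀ (g : Γ) a, ψ (g • a) = ψ a) :
    ∑ a, sym Γ f a * ψ a = ∑ a, f a * ψ a := by
  simp only [← sym_mul f ψ hψ, sum_sym']

lemma sym_fst [Fintype Ω'] (f : Ω × Ω' → ℝ) (a : Ω) :
    ∑ b, sym Γ f (a, b) = sym Γ (fun a => ∑ b, f (a, b)) a := by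
  simp only [sym, ← sum_div]
  rw [sum_comm]
  congr 1
  exact sum_congr rfl fun g _ => Fintype.sum_equiv (MulAction.toPerm g) _ _ fun _ => rfl

lemma sym_snd [Fintype Ω] (f : Ω × Ω' → ℝ) (b : Ω') :
    ∑ a, sym Γ f (a, b) = sym Γ (fun b => ∑ a, f (a, b)) b := by
  simp only [sym, ← sum_div]
  rw [sum_comm]
  congr 1
  exact sum_congr rfl fun g _ => Fintype.sum_equiv (MulAction.toPerm g) _ _ fun _ => rfl

lemma sum_log_sym [Fintype Ω] (f : Ω → ℝ) : ∑ a, f a * log (sym Γ f a) = ∑ a, φ (sym Γ f a) :=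
  (sum_sym f _ fun g a => by rw [sym_smul]).symm

lemma variational [Fintype Ω] {f R : Ω → ℝ} (hf : ∀ a, 0 ≤ f a) (hR : ∀ a, 0 ≤ R a)
    (hi : ∀ (g : Γ) a, R (g • a) = R a) (hp : ∀ a, f a ≠ 0 → 0 < R a) (hs : ∑ a, R a ≤ ∑ a, f a) :
    ∑ a, f a * log (R a) ≤ ∑ a, φ (sym Γ f a) := by
  have h1 := gibbs univ f (fun a => R a / sym Γ f a) hf fun a h => div_pos (hp a h) (sym_pos hf h)
  have h2 : ∑ a, f a * (R a / sym Γ f a) ≤ ∑ a, R a := by
    rw [← sum_sym f _ fun (g : Γ) a => by rw [sym_smul, hi]]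
    refine sum_le_sum fun a _ => ?_
    by_cases h : sym Γ f a = 0
    · simp [h, hR]
    · rw [mul_div_cancel₀ _ h]
  have h3 : ∑ a, f a * log (R a / sym Γ f a) = ∑ a, f a * log (R a) - ∑ a, φ (sym Γ f a) := by
    rw [← sum_log_sym, ← sum_sub_distrib]
    refine sum_congr rfl fun a _ => ?_
    by_cases h : f a = 0
    · simp [h]
    · rw [log_div (hp a h).ne' (sym_pos hf h).ne']; ring
  linarith

lemma sym_orbit [Fintype Ω] [DecidableEq Ω] {f : Ω → ℝ} (hf : ∀ a, 0 ≤ f a) (a : Ω) :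
    #(univ.image fun g : Γ => g • a) * sym Γ f a ≤ ∑ a, f a := by
  rw [← sum_sym' (Γ := Γ), ← nsmul_eq_mul, ← sum_const]
  refine le_trans (le_of_eq (sum_congr rfl fun b hb => ?_))
    (sum_le_sum_of_subset_of_nonneg (subset_univ _) fun b _ _ => sym_nonneg hf b)
  obtain ⟨g, -, rfl⟩ := mem_image.1 hb
  rw [sym_smul]

end

variable {X : Type} [Fintype X] [DecidableEq X] [MulAction Γ X]

/-- relative entropy with respect to the symmetrisation -/
noncomputable def D (Q : Finset X → ℝ) : ℝ := ∑ A, φ (Q A) - ∑ A, φ (sym Γ Q A)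

/-- marginal mass of a point -/
noncomputable def mar (Q : Finset X → ℝ) (x : X) : ℝ := ∑ A, if x ∈ A then Q A else 0

/-- mean size -/
noncomputable def sz (Q : Finset X → ℝ) : ℝ := ∑ A, Q A * #A

/-- the functional to be maximised -/
noncomputable def J (l : ℝ) (Q : Finset X → ℝ) : ℝ :=
  l * sz Q - D Γ Q + 10 * ∑ x, W (∑ A, Q A) (mar Q x)

lemma sz_eq (Q : Finset X → ℝ) : sz Q = ∑ x, mar Q x := by
  unfold sz mar
  rw [sum_comm]
  refine sum_congr rfl fun A _ => ?_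
  rw [sum_ite_mem, univ_inter, sum_const, nsmul_eq_mul, mul_comm]

lemma J_smul (l : ℝ) (Q : Finset X → ℝ) {c : ℝ} (hc : c ≠ 0) :
    J Γ l (fun A => c * Q A) = c * J Γ l Q := by
  have h1 : ∀ f : Finset X → ℝ, ∑ A, φ (c * f A) = c * ∑ A, φ (f A) + c * log c * ∑ A, f A := by
    intro f
    simp only [mul_sum, ← sum_add_distrib]
    refine sum_congr rfl fun A _ => ?_
    by_cases h : f A = 0
    · simp [h, φ]
    · rw [φ, φ, log_mul hc h]; ring
  have h2 : ∀ A, sym Γ (fun A => c * Q A) A = c * sym Γ Q A := fun A => by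
    simp only [sym, ← mul_sum, mul_div_assoc]
  have h3 : ∀ x, mar (fun A => c * Q A) x = c * mar Q x := fun x => by
    simp only [mar, mul_sum, mul_ite, mul_zero]
  simp only [J, D, sz, h1, h2, h3, sum_sym', W, ← mul_sum, mul_div_mul_left _ _ hc, mul_assoc]
  ring

lemma exists_max (H : Finset X) (hH : H.Nonempty) (l : ℝ) : ∃ (Λ : ℝ) (P : Finset X → ℝ),
    (∀ A, 0 ≤ P A) ∧ ∑ A, P A = 1 ∧ (∀ A, P A ≠ 0 → A ⊆ H) ∧ P ∅ = 0 ∧ 1 ≤ sz P ∧
    J Γ l P = Λ * sz P ∧ ∀ Q : Finset X → ℝ, (∀ A, 0 ≤ Q A) → (∀ A, Q A ≠ 0 → A ⊆ H) → Q ∅ = 0 →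
      J Γ l Q ≤ Λ * sz Q := by
  let K : Set (Finset X → ℝ) := stdSimplex ℝ (Finset X) ∩ ⋂ A ∈ {A | ¬ A ⊆ H ∨ A = ∅}, {P | P A = 0}
  have hK : ∀ P, P ∈ K ↔ (∀ A, 0 ≤ P A) ∧ ∑ A, P A = 1 ∧ (∀ A, P A ≠ 0 → A ⊆ H) ∧ P ∅ = 0 := by
    intro P
    simp only [K, stdSimplex, Set.mem_inter_iff, Set.mem_iInter, Set.mem_ofPred_eq, and_assoc]
    refine and_congr_right fun _ => and_congr_right fun _ =>
      ⟨fun h => ⟨fun A hA => ?_, h _ (.inr rfl)⟩, fun h A hA => ?_⟩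
    · by_contra h0; exact hA (h A (.inl h0))
    · rcases hA with hA | rfl
      · by_contra h0; exact hA (h.1 A h0)
      · exact h.2
  have hsz : ∀ P ∈ K, 1 ≤ sz P := by
    intro P hP
    obtain ⟨h0, h1, -, h2⟩ := (hK P).1 hP
    rw [← h1]
    refine sum_le_sum fun A _ => ?_
    rcases A.eq_empty_or_nonempty with rfl | hA
    · simp [h2]
    · exact le_mul_of_one_le_right (h0 A) (by exact_mod_cast hA.card_pos)
  have hc : IsCompact K := (isCompact_stdSimplex ℝ _).inter_right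
    (isClosed_biInter fun A _ => isClosed_eq (continuous_apply A) continuous_const)
  have hne : K.Nonempty := ⟨Pi.single H 1, (hK _).2 ⟨fun A => by
    rw [Pi.single_apply]; split_ifs <;> simp, by simp, fun A hA => by
      by_contra h0; exact hA (Pi.single_eq_of_ne (fun h : A = H => h0 h.subset) _),
    Pi.single_eq_of_ne hH.ne_empty.symm _⟩⟩
  have hφ : Continuous φ := continuous_mul_log
  have hmar : ∀ x : X, Continuous fun P : Finset X → ℝ => mar P x := fun x =>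
    continuous_finsetSum _ fun A _ => by split_ifs <;> fun_prop
  have hcont : ContinuousOn (fun P : Finset X → ℝ => J Γ l P / sz P) K := by
    refine ContinuousOn.div (ContinuousOn.congr (f := fun P : Finset X → ℝ =>
      l * sz P - D Γ P + 10 * ∑ x, mar P x * √(mar P x)) (Continuous.continuousOn ?_) ?_)
      (Continuous.continuousOn (by unfold sz; fun_prop)) fun P hP => by linarith [hsz P hP]
    · unfold sz D sym; fun_prop
    · intro P hP
      simp only [J, W, ((hK P).1 hP).2.1, div_one]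
  obtain ⟨P, hP, hmax⟩ := hc.exists_isMaxOn hne hcont
  obtain ⟨h0, h1, h2, h3⟩ := (hK P).1 hP
  have h4 := hsz P hP
  refine ⟨J Γ l P / sz P, P, h0, h1, h2, h3, h4, by field_simp, fun Q q0 q1 q2 => ?_⟩
  by_cases hs : ∑ A, Q A = 0
  · have : Q = fun _ => 0 := funext fun A => (sum_eq_zero_iff_of_nonneg fun A _ => q0 A).1 hs A (by simp)
    subst this
    simp [J, D, sz, sym, φ, W, mar]
  have hs' : 0 < ∑ A, Q A := lt_of_le_of_ne (sum_nonneg fun A _ => q0 A) (Ne.symm hs)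
  have hQ : (fun A => (∑ A, Q A)⁻¹ * Q A) ∈ K := (hK _).2 ⟨fun A => mul_nonneg (by positivity) (q0 A),
    by rw [← mul_sum, inv_mul_cancel₀ hs], fun A h => q1 A (right_ne_zero_of_mul h), by simp [q2]⟩
  have h5 : J Γ l _ / sz _ ≤ J Γ l P / sz P := hmax hQ
  have h6 := hsz _ hQ
  rw [div_le_iff₀ (by linarith), J_smul Γ l Q (inv_ne_zero hs)] at h5
  have : sz (fun A => (∑ A, Q A)⁻¹ * Q A) = (∑ A, Q A)⁻¹ * sz Q := by
    simp only [sz, mul_sum, mul_assoc]
  rw [this, mul_left_comm] at h5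
  exact le_of_mul_le_mul_left h5 (by positivity)

end Vale.Agent.P064
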